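import Vale.Agent.Lib.P038.SatK.Shapes.S6_5_0t
noncomputable section
namespace Vale.Agent.Lib.P038.SatK.I.M1_0
open Vale.Agent.Lib.P038.Sat Vale.Agent.Lib.P038.SatK
def W : Nat := 28
def M : Nat := 268435455
def GT : Nat := 332499596139599783141416559869015848952857823479739132681870812021520930702146733163295367506906375785393262418969672875777522463618328011422263456785804206926951762290081642685729119714843380838330399
def h0 : T := (T.l (nat_lit 0))
def H : T := h0
theorem hlast : getB H 0 = 0 := by decide +kernel
end Vale.Agent.Lib.P038.SatK.I.M1_0
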