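import Vale.Agent.Lib.P038.SatK.I.M1_0.H
noncomputable section
namespace Vale.Agent.Lib.P038.SatK.I.M1_0.S0
open Vale.Agent.Lib.P038.Sat Vale.Agent.Lib.P038.SatK Vale.Agent.Lib.P038.SatK.I.M1_0
def b0 : List Nat := [nat_lit 1899956092797063,nat_lit 13262467592532542817,nat_lit 6921117850774553937,nat_lit 1970350606778519,nat_lit 12109616482439677313,nat_lit 12685584662090237297,nat_lit 1829638888226983,nat_lit 10380093513810855329,nat_lit 2885540792469308817,nat_lit 1759295913853111,nat_lit 8074180161622787521,nat_lit 3461720095565825457,nat_lit 7496804632824399552,nat_lit 33076167367946093610704,nat_lit 89745142819411414107872,nat_lit 37806028403562883729136,nat_lit 4743121181152470517504,nat_lit 2040839610040360,nat_lit 281629595533369,nat_lit 9449923364473917294193,nat_lit 2181602868199432,nat_lit 47225396462934237791857,nat_lit 51967939423986846549616,nat_lit 94449061784228911269489,nat_lit 4748310594629683660544,nat_lit 3659389445603352,nat_lit 80294068363287804004177,nat_lit 9226398124953585505,nat_lit 1055771680833609]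
def p0 : List Nat := [nat_lit 4503599627558913,nat_lit 9007749010653185,nat_lit 18016047777095684,nat_lit 22520197160288261,nat_lit 31528495926624263,nat_lit 36032645309702151,nat_lit 45040944076144649,nat_lit 49544543703449611,nat_lit 54043745284366348,nat_lit 479664889360640172045,nat_lit 516567383607802486798,nat_lit 553465379203139567631,nat_lit 590363364353183563791,nat_lit 67563340259639311,nat_lit 701043838690978242579,nat_lit 774853332983953309714,nat_lit 811742317531745050643,nat_lit 848640309828547411991,nat_lit 885520289376107864088,nat_lit 959343295017720840218,nat_lit 121611483590516763,nat_lit 15394974728220]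
def o0 : List Nat := [nat_lit 28]
theorem ok : segCheck (Gen.gen sh_6_5_0_t (flM6 1)) W M GT 5 0 1 H [b0] [] [p0] [o0] = true := by decide +kernel
theorem seg {τ : Nat → Bool} (hgen : ∀ t c, Gen.gen sh_6_5_0_t (flM6 1) t = some c → holdsG τ c)
  (hin : ∀ g, g < 0 → HL W (loc GT τ) (getB H g)) :
  ∀ g, 0 ≤ g → g < 1 → HL W (loc GT τ) (getB H g) :=
  segCheck_sound ok hgen hin
end Vale.Agent.Lib.P038.SatK.I.M1_0.S0
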